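import Mathlib

/-!
# Characters of abelian groups (auxiliary facts)
-/

namespace Vale.Agent.Lib.P184

variable {A : Type*} [CommGroup A]

/-- the map `ℚ/ℤ → ℝ/ℤ` -/
noncomputable def ratCircleMap : AddCircle (1 : ℚ) →+ AddCircle (1 : ℝ) :=
  QuotientAddGroup.map (AddSubgroup.zmultiples (1 : ℚ)) (AddSubgroup.zmultiples (1 : ℝ))
    (Rat.castHom ℝ).toAddMonoidHom (by
      intro x hx
      rw [AddSubgroup.mem_zmultiples_iff] at hx
      obtain ⟨n, rfl⟩ := hx
      rw [AddSubgroup.mem_comap, AddSubgroup.mem_zmultiples_iff]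
      exact ⟨n, by simp⟩)

theorem ratCircleMap_ne_zero {y : AddCircle (1 : ℚ)} (hy : y ≠ 0) : ratCircleMap y ≠ 0 := by
  induction y using QuotientAddGroup.induction_on with
  | H r =>
    intro h
    apply hy
    have h1 : (((r : ℚ) : ℝ) : AddCircle (1 : ℝ)) = 0 := h
    rw [QuotientAddGroup.eq_zero_iff, AddSubgroup.mem_zmultiples_iff] at h1
    obtain ⟨n, hn⟩ := h1
    rw [QuotientAddGroup.eq_zero_iff, AddSubgroup.mem_zmultiples_iff]
    refine ⟨n, ?_⟩
    have : ((n : ℚ) : ℝ) = (r : ℝ) := by simpa using hn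
    have h2 : (n : ℚ) = r := by exact_mod_cast this
    simpa using h2

/-- Unitary characters of an abelian group separate the points outside a subgroup from it. -/
theorem exists_char_of_not_mem (B : Subgroup A) {x : A} (hx : x ∉ B) :
    ∃ χ : A →* ℂ, (∀ a, ‖χ a‖ = 1) ∧ (∀ b ∈ B, χ b = 1) ∧ χ x ≠ 1 := by
  have hx' : Additive.ofMul (QuotientGroup.mk x : A ⧸ B) ≠ 0 := by
    intro h
    apply hx
    have : (QuotientGroup.mk x : A ⧸ B) = 1 := h
    exact (QuotientGroup.eq_one_iff x).mp this
  obtain ⟨c, hc⟩ := CharacterModule.exists_character_apply_ne_zero_of_ne_zero hx'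
  let χ : A →* ℂ :=
    { toFun := fun a => ((ratCircleMap (c (Additive.ofMul (QuotientGroup.mk a : A ⧸ B)))).toCircle : ℂ)
      map_one' := by
        have : Additive.ofMul (QuotientGroup.mk (1 : A) : A ⧸ B) = 0 := rfl
        rw [this, map_zero, map_zero, AddCircle.toCircle_zero]
        rfl
      map_mul' := by
        intro a b
        have : Additive.ofMul (QuotientGroup.mk (a * b) : A ⧸ B)
            = Additive.ofMul (QuotientGroup.mk a : A ⧸ B) + Additive.ofMul (QuotientGroup.mk b : A ⧸ B) := rfl
        rw [this, map_add, map_add, AddCircle.toCircle_add]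
        rfl }
  refine ⟨χ, fun a => Circle.norm_coe _, fun b hb => ?_, ?_⟩
  · have : Additive.ofMul (QuotientGroup.mk b : A ⧸ B) = 0 := by
      have : (QuotientGroup.mk b : A ⧸ B) = 1 := (QuotientGroup.eq_one_iff b).mpr hb
      rw [this]; rfl
    show ((ratCircleMap (c (Additive.ofMul (QuotientGroup.mk b : A ⧸ B)))).toCircle : ℂ) = 1
    rw [this, map_zero, map_zero, AddCircle.toCircle_zero]
    rfl
  · intro h
    have h1 : ((ratCircleMap (c (Additive.ofMul (QuotientGroup.mk x : A ⧸ B)))).toCircle : ℂ)
        = ((1 : Circle) : ℂ) := h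
    have h2 := Circle.coe_injective h1
    rw [← AddCircle.toCircle_zero (T := 1)] at h2
    have h3 := AddCircle.injective_toCircle (T := 1) one_ne_zero h2
    exact ratCircleMap_ne_zero hc h3

/-- An element of infinite order of an abelian group is detected by a homomorphism to `ℝ`. -/
theorem exists_real_hom_of_not_finOrder {x : A} (hx : ¬ IsOfFinOrder x) :
    ∃ ψ : A →* Multiplicative ℝ, ψ x ≠ 1 := by
  let f : ℤ →ₗ[ℤ] Additive A := LinearMap.toSpanSingleton ℤ (Additive A) (Additive.ofMul x)
  have hf : Function.Injective f := by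
    intro m n hmn
    have h1 : m • Additive.ofMul x = n • Additive.ofMul x := by
      simpa [f, LinearMap.toSpanSingleton_apply] using hmn
    have h2 : x ^ m = x ^ n := h1
    exact (injective_zpow_iff_not_isOfFinOrder.mpr hx) h2
  let g : ℤ →ₗ[ℤ] ℝ := LinearMap.toSpanSingleton ℤ ℝ 1
  obtain ⟨h, hh⟩ := Module.Baer.extension_property (Module.Baer.of_divisible ℝ) f hf g
  have h1 : h (Additive.ofMul x) = 1 := by
    have := congrArg (fun L => L 1) hh
    simpa [f, g, LinearMap.toSpanSingleton_apply] using this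
  refine ⟨{ toFun := fun a => Multiplicative.ofAdd (h (Additive.ofMul a))
            map_one' := by
              have : Additive.ofMul (1 : A) = 0 := rfl
              rw [this, map_zero]; rfl
            map_mul' := by
              intro a b
              have : Additive.ofMul (a * b) = Additive.ofMul a + Additive.ofMul b := rfl
              rw [this, map_add]; rfl }, ?_⟩
  intro h2
  have h3 : Multiplicative.ofAdd (h (Additive.ofMul x)) = Multiplicative.ofAdd (0 : ℝ) := h2
  rw [h1] at h3
  have := Multiplicative.ofAdd.injective h3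
  exact one_ne_zero this

/-- In a finitely generated subgroup of an abelian group only finitely many elements have finite
order. -/
theorem finite_torsion_of_fg (B : Subgroup A) (hB : B.FG) :
    Set.Finite {x : A | x ∈ B ∧ IsOfFinOrder x} := by
  have : Group.FG B := (Group.fg_iff_subgroup_fg B).mpr hB
  have : AddGroup.FG (Additive B) := inferInstance
  have : Module.Finite ℤ (Additive B) := Module.Finite.iff_addGroup_fg.mpr inferInstance
  have : Finite (Submodule.torsion ℤ (Additive B)) :=
    Module.finite_of_fg_torsion _ Submodule.torsion_isTorsion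
  apply (Set.finite_range
    (fun t : Submodule.torsion ℤ (Additive B) => ((Additive.toMul (t : Additive B) : B) : A))).subset
  rintro x ⟨hxB, hx⟩
  obtain ⟨n, hn, hxn⟩ := isOfFinOrder_iff_pow_eq_one.mp hx
  refine ⟨⟨Additive.ofMul (⟨x, hxB⟩ : B), ?_⟩, rfl⟩
  rw [Submodule.mem_torsion_iff]
  refine ⟨⟨(n : ℤ), ?_⟩, ?_⟩
  · rw [mem_nonZeroDivisors_iff_ne_zero]
    exact_mod_cast hn.ne'
  · show ((n : ℤ)) • Additive.ofMul (⟨x, hxB⟩ : B) = 0
    rw [natCast_zsmul]
    have : (⟨x, hxB⟩ : B) ^ n = 1 := Subtype.ext (by simpa using hxn)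
    exact congrArg Additive.ofMul this

end Vale.Agent.Lib.P184
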