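import Mathlib

/-!
# Abstract lemma: bounded traces agree on idempotents at distance less than one
-/

namespace Vale.Agent.Lib.P184

open scoped BigOperators

section abstract_lemma

variable {A : Type*} [Ring A]

theorem trace_step (τ : A →+ ℂ) (hcomm : ∀ x y, τ (x * y) = τ (y * x))
    {e f : A} (he : e * e = e) (hf : f * f = f) (n : ℕ) :
    τ (((f - e) * (f - e)) ^ (n + 1) * (f - e)) = τ (((f - e) * (f - e)) ^ n * (f - e)) := by
  set w := (f - e) * (f - e) with hw
  have hwe : Commute w e := by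
    have h1 : w * e = e - e * f * e := by
      rw [hw]
      have : (f - e) * (f - e) * e = f * f * e - f * (e * e) - e * f * e + e * (e * e) := by
        noncomm_ring
      rw [this, he, hf, he]; abel
    have h2 : e * w = e - e * f * e := by
      rw [hw]
      have : e * ((f - e) * (f - e)) = e * (f * f) - e * f * e - (e * e) * f + (e * e) * e := by
        noncomm_ring
      rw [this, he, hf, he]; abel
    exact h1.trans h2.symm
  have hwf : Commute w f := by
    have h1 : w * f = f - f * e * f := by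
      rw [hw]
      have : (f - e) * (f - e) * f = (f * f) * f - f * e * f - e * (f * f) + (e * e) * f := by
        noncomm_ring
      rw [this, he, hf, hf]; abel
    have h2 : f * w = f - f * e * f := by
      rw [hw]
      have : f * ((f - e) * (f - e)) = (f * f) * f - (f * f) * e - f * e * f + f * (e * e) := by
        noncomm_ring
      rw [this, he, hf, hf]; abel
    exact h1.trans h2.symm
  have hwx : w * (f - e) = f - f * e * f + e * f * e - e := by
    rw [hw]
    have : (f - e) * (f - e) * (f - e) = (f * f) * f - (f * f) * e - f * e * f + f * (e * e)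
        - e * (f * f) + e * f * e + (e * e) * f - (e * e) * e := by noncomm_ring
    rw [this, he, hf, hf, he]; abel
  have hcf : ∀ y : A, f * (w ^ n * y) = w ^ n * (f * y) := by
    intro y
    rw [← mul_assoc, ← (hwf.pow_left n).eq, mul_assoc]
  have hce : ∀ y : A, e * (w ^ n * y) = w ^ n * (e * y) := by
    intro y
    rw [← mul_assoc, ← (hwe.pow_left n).eq, mul_assoc]
  have h1 : τ (w ^ n * (f * e * f)) = τ (w ^ n * (f * e)) := by
    have : w ^ n * (f * e * f) = (w ^ n * (f * e)) * f := by simp only [mul_assoc]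
    rw [this, hcomm, hcf, ← mul_assoc f f e, hf]
  have h2 : τ (w ^ n * (e * f * e)) = τ (w ^ n * (e * f)) := by
    have : w ^ n * (e * f * e) = (w ^ n * (e * f)) * e := by simp only [mul_assoc]
    rw [this, hcomm, hce, ← mul_assoc e e f, he]
  have h3 : τ (w ^ n * (e * f)) = τ (w ^ n * (f * e)) := by
    have : w ^ n * (e * f) = (w ^ n * e) * f := by simp only [mul_assoc]
    rw [this, hcomm, hcf]
  rw [pow_succ, mul_assoc, hwx]
  simp only [mul_add, mul_sub, map_add, map_sub]
  rw [h1, h2, h3]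
  abel

theorem trace_pow (τ : A →+ ℂ) (hcomm : ∀ x y, τ (x * y) = τ (y * x))
    {e f : A} (he : e * e = e) (hf : f * f = f) (n : ℕ) :
    τ (((f - e) * (f - e)) ^ n * (f - e)) = τ (f - e) := by
  induction n with
  | zero => simp
  | succ n ih => rw [trace_step τ hcomm he hf n, ih]

theorem N_pow_le (N : A → ℝ) (hN0 : ∀ x, 0 ≤ N x) (hNmul : ∀ x y, N (x * y) ≤ N x * N y)
    (x : A) (n : ℕ) : N ((x * x) ^ n * x) ≤ N x ^ (2 * n + 1) := by
  induction n with
  | zero => simp
  | succ n ih =>
    have : (x * x) ^ (n + 1) * x = x * (x * ((x * x) ^ n * x)) := by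
      rw [pow_succ', mul_assoc, mul_assoc]
    rw [this]
    calc N (x * (x * ((x * x) ^ n * x))) ≤ N x * N (x * ((x * x) ^ n * x)) := hNmul _ _
      _ ≤ N x * (N x * N ((x * x) ^ n * x)) := by
          gcongr
          · exact hN0 _
          · exact hNmul _ _
      _ ≤ N x * (N x * N x ^ (2 * n + 1)) := by
          gcongr
          · exact hN0 _
          · exact hN0 _
      _ = N x ^ (2 * (n + 1) + 1) := by ring

/-- Two idempotents at distance `< 1` for a submultiplicative gauge `N` have the same image under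
every additive trace bounded with respect to `N`. -/
theorem trace_eq_of_idem (N : A → ℝ) (hN0 : ∀ x, 0 ≤ N x)
    (hNmul : ∀ x y, N (x * y) ≤ N x * N y)
    (τ : A →+ ℂ) (K : ℝ) (hτ : ∀ x, ‖τ x‖ ≤ K * N x) (hcomm : ∀ x y, τ (x * y) = τ (y * x))
    {e f : A} (he : e * e = e) (hf : f * f = f) (hlt : N (f - e) < 1) : τ e = τ f := by
  have hK : 0 ≤ K ∨ N (f - e) = 0 := by
    by_cases h0 : N (f - e) = 0
    · exact Or.inr h0
    · left
      have hpos : 0 < N (f - e) := lt_of_le_of_ne (hN0 _) (Ne.symm h0)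
      have := (norm_nonneg _).trans (hτ (f - e))
      by_contra hK
      push Not at hK
      nlinarith
  have hbound : ∀ n : ℕ, ‖τ (f - e)‖ ≤ |K| * N (f - e) ^ (2 * n + 1) := by
    intro n
    rw [← trace_pow τ hcomm he hf n]
    calc ‖τ (((f - e) * (f - e)) ^ n * (f - e))‖ ≤ K * N (((f - e) * (f - e)) ^ n * (f - e)) := hτ _
      _ ≤ |K| * N (((f - e) * (f - e)) ^ n * (f - e)) := by
          gcongr
          · exact hN0 _
          · exact le_abs_self K
      _ ≤ |K| * N (f - e) ^ (2 * n + 1) := by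
          gcongr
          exact N_pow_le N hN0 hNmul _ n
  have hlim : Filter.Tendsto (fun n : ℕ => |K| * N (f - e) ^ (2 * n + 1)) Filter.atTop (nhds 0) := by
    have h1 : Filter.Tendsto (fun n : ℕ => N (f - e) ^ n) Filter.atTop (nhds 0) :=
      tendsto_pow_atTop_nhds_zero_of_lt_one (hN0 _) hlt
    have h2 : Filter.Tendsto (fun n : ℕ => 2 * n + 1) Filter.atTop Filter.atTop := by
      apply Filter.tendsto_atTop_mono (fun n => by omega : ∀ n : ℕ, n ≤ 2 * n + 1)
      exact Filter.tendsto_id
    have := (h1.comp h2).const_mul |K|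
    simpa using this
  have h0 : ‖τ (f - e)‖ ≤ 0 := ge_of_tendsto' hlim hbound
  have h1 : τ (f - e) = 0 := by simpa using h0
  rw [map_sub, sub_eq_zero] at h1
  exact h1.symm

end abstract_lemma

section matrix_ext

variable {B : Type*} [Ring B] {n : Type*} [Fintype n] [DecidableEq n]

/-- entrywise sum gauge on matrices -/
def matN (N₀ : B → ℝ) (X : Matrix n n B) : ℝ := ∑ i, ∑ j, N₀ (X i j)

theorem matN_nonneg {N₀ : B → ℝ} (h0 : ∀ x, 0 ≤ N₀ x) (X : Matrix n n B) : 0 ≤ matN N₀ X :=
  Finset.sum_nonneg fun _ _ => Finset.sum_nonneg fun _ _ => h0 _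

theorem matN_mul_le {N₀ : B → ℝ} (h0 : ∀ x, 0 ≤ N₀ x) (hz : N₀ 0 = 0)
    (hadd : ∀ x y, N₀ (x + y) ≤ N₀ x + N₀ y) (hmul : ∀ x y, N₀ (x * y) ≤ N₀ x * N₀ y)
    (X Y : Matrix n n B) : matN N₀ (X * Y) ≤ matN N₀ X * matN N₀ Y := by
  have hsum : ∀ (s : Finset n) (F : n → B), N₀ (∑ j ∈ s, F j) ≤ ∑ j ∈ s, N₀ (F j) := by
    intro s F
    induction s using Finset.induction_on with
    | empty => simp [hz]
    | insert a s ha ih =>
      rw [Finset.sum_insert ha, Finset.sum_insert ha]
      exact (hadd _ _).trans (by linarith)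
  unfold matN
  calc ∑ i, ∑ k, N₀ ((X * Y) i k) ≤ ∑ i, ∑ k, ∑ j, N₀ (X i j) * N₀ (Y j k) := by
        apply Finset.sum_le_sum; intro i _
        apply Finset.sum_le_sum; intro k _
        rw [Matrix.mul_apply]
        refine (hsum _ _).trans ?_
        apply Finset.sum_le_sum; intro j _
        exact hmul _ _
    _ ≤ ∑ i, ∑ k, ∑ j, N₀ (X i j) * ∑ j', N₀ (Y j' k) := by
        apply Finset.sum_le_sum; intro i _
        apply Finset.sum_le_sum; intro k _
        apply Finset.sum_le_sum; intro j _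
        apply mul_le_mul_of_nonneg_left _ (h0 _)
        exact Finset.single_le_sum (f := fun j' => N₀ (Y j' k)) (fun _ _ => h0 _) (Finset.mem_univ j)
    _ = (∑ i, ∑ j, N₀ (X i j)) * ∑ i, ∑ j, N₀ (Y i j) := by
        rw [Finset.sum_mul]
        apply Finset.sum_congr rfl; intro i _
        simp_rw [← Finset.sum_mul]
        rw [← Finset.mul_sum, Finset.sum_comm]

/-- the trace on matrices induced by a trace on the coefficient ring -/
def matTr (τ₀ : B →+ ℂ) : Matrix n n B →+ ℂ where
  toFun X := ∑ i, τ₀ (X i i)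
  map_zero' := by simp
  map_add' X Y := by simp [Finset.sum_add_distrib]

theorem matTr_apply (τ₀ : B →+ ℂ) (X : Matrix n n B) : matTr τ₀ X = ∑ i, τ₀ (X i i) := rfl

theorem matTr_comm (τ₀ : B →+ ℂ) (hcomm : ∀ x y, τ₀ (x * y) = τ₀ (y * x)) (X Y : Matrix n n B) :
    matTr τ₀ (X * Y) = matTr τ₀ (Y * X) := by
  simp only [matTr_apply, Matrix.mul_apply, map_sum]
  rw [Finset.sum_comm]
  apply Finset.sum_congr rfl; intro i _
  apply Finset.sum_congr rfl; intro j _
  exact hcomm _ _

theorem matTr_bound (τ₀ : B →+ ℂ) {N₀ : B → ℝ} (h0 : ∀ x, 0 ≤ N₀ x) {K : ℝ} (hK : 0 ≤ K)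
    (hb : ∀ x, ‖τ₀ x‖ ≤ K * N₀ x) (X : Matrix n n B) : ‖matTr τ₀ X‖ ≤ K * matN N₀ X := by
  rw [matTr_apply]
  unfold matN
  rw [Finset.mul_sum]
  refine (norm_sum_le _ _).trans ?_
  apply Finset.sum_le_sum; intro i _
  refine (hb _).trans ?_
  apply mul_le_mul_of_nonneg_left _ hK
  exact Finset.single_le_sum (f := fun j => N₀ (X i j)) (fun _ _ => h0 _) (Finset.mem_univ i)

end matrix_ext

end Vale.Agent.Lib.P184
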