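import Vale.Agent.Lib.P184.Defs

namespace Vale.Agent.Lib.P184

open scoped BigOperators

variable {G : Type*} [Group G]

theorem summable_norm_shear {a b : G → ℂ} (ha : MemL1 a) (hb : MemL1 b) :
    Summable fun p : G × G => ‖a p.1‖ * ‖b (p.1⁻¹ * p.2)‖ := by
  have h := Summable.mul_of_nonneg ha hb (fun _ => norm_nonneg _) (fun _ => norm_nonneg _)
  have := ((Equiv.prodShear (Equiv.refl G) (fun h => Equiv.mulLeft h⁻¹)).summable_iff).mpr h
  simpa [Function.comp_def] using this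

theorem summable_norm_conv_term {a b : G → ℂ} (ha : MemL1 a) (hb : MemL1 b) (g : G) :
    Summable fun h => ‖a h‖ * ‖b (h⁻¹ * g)‖ :=
  (summable_norm_shear ha hb).prod_symm.prod_factor g

theorem summable_conv_term {a b : G → ℂ} (ha : MemL1 a) (hb : MemL1 b) (g : G) :
    Summable fun h => a h * b (h⁻¹ * g) := by
  apply Summable.of_norm
  simpa [norm_mul] using summable_norm_conv_term ha hb g

theorem norm_conv_le {a b : G → ℂ} (ha : MemL1 a) (hb : MemL1 b) (g : G) :
    ‖conv a b g‖ ≤ ∑' h, ‖a h‖ * ‖b (h⁻¹ * g)‖ := by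
  unfold conv
  have := norm_tsum_le_tsum_norm (f := fun h => a h * b (h⁻¹ * g))
    (by simpa [norm_mul] using summable_norm_conv_term ha hb g)
  simpa [norm_mul] using this

theorem summable_tsum_norm_conv {a b : G → ℂ} (ha : MemL1 a) (hb : MemL1 b) :
    Summable fun g => ∑' h, ‖a h‖ * ‖b (h⁻¹ * g)‖ :=
  (summable_norm_shear ha hb).prod_symm.prod

theorem MemL1.conv {a b : G → ℂ} (ha : MemL1 a) (hb : MemL1 b) : MemL1 (conv a b) :=
  Summable.of_nonneg_of_le (fun _ => norm_nonneg _) (norm_conv_le ha hb)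
    (summable_tsum_norm_conv ha hb)

/-- the `ℓ¹` norm -/
noncomputable def nrm (a : G → ℂ) : ℝ := ∑' g, ‖a g‖

theorem nrm_nonneg (a : G → ℂ) : 0 ≤ nrm a := tsum_nonneg fun _ => norm_nonneg _

theorem nrm_conv_le {a b : G → ℂ} (ha : MemL1 a) (hb : MemL1 b) :
    nrm (conv a b) ≤ nrm a * nrm b := by
  have h1 : nrm (conv a b) ≤ ∑' g, ∑' h, ‖a h‖ * ‖b (h⁻¹ * g)‖ :=
    Summable.tsum_le_tsum (norm_conv_le ha hb) (ha.conv hb) (summable_tsum_norm_conv ha hb)
  have h2 : ∑' g, ∑' h, ‖a h‖ * ‖b (h⁻¹ * g)‖ = ∑' h, ∑' g, ‖a h‖ * ‖b (h⁻¹ * g)‖ :=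
    Summable.tsum_comm (f := fun h g => ‖a h‖ * ‖b (h⁻¹ * g)‖) (summable_norm_shear ha hb)
  have h3 : ∀ h, ∑' g, ‖a h‖ * ‖b (h⁻¹ * g)‖ = ‖a h‖ * nrm b := by
    intro h
    rw [tsum_mul_left]
    congr 1
    exact (Equiv.mulLeft h⁻¹).tsum_eq (fun g => ‖b g‖)
  rw [h2] at h1
  simp_rw [h3] at h1
  rw [tsum_mul_right] at h1
  exact h1


theorem MemL1.norm_le_nrm {c : G → ℂ} (hc : MemL1 c) (x : G) : ‖c x‖ ≤ nrm c :=
  hc.le_tsum x (fun _ _ => norm_nonneg _)

theorem conv_assoc {a b c : G → ℂ} (ha : MemL1 a) (hb : MemL1 b) (hc : MemL1 c) :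
    conv (conv a b) c = conv a (conv b c) := by
  funext g
  have hsum : Summable (Function.uncurry fun (k h : G) => a k * b (k⁻¹ * h) * c (h⁻¹ * g)) := by
    apply Summable.of_norm_bounded (g := fun p : G × G => ‖a p.1‖ * ‖b (p.1⁻¹ * p.2)‖ * nrm c)
      ((summable_norm_shear ha hb).mul_right _)
    rintro ⟨k, h⟩
    simp only [Function.uncurry, norm_mul]
    gcongr
    exact hc.norm_le_nrm _
  calc conv (conv a b) c g = ∑' h, (∑' k, a k * b (k⁻¹ * h)) * c (h⁻¹ * g) := rfl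
    _ = ∑' h, ∑' k, a k * b (k⁻¹ * h) * c (h⁻¹ * g) := by
        congr 1; funext h; rw [tsum_mul_right]
    _ = ∑' k, ∑' h, a k * b (k⁻¹ * h) * c (h⁻¹ * g) := Summable.tsum_comm hsum
    _ = ∑' k, a k * ∑' h, b (k⁻¹ * h) * c (h⁻¹ * g) := by
        congr 1; funext k; simp_rw [mul_assoc]; rw [tsum_mul_left]
    _ = ∑' k, a k * ∑' l, b l * c (l⁻¹ * (k⁻¹ * g)) := by
        congr 1; funext k; congr 1
        rw [← (Equiv.mulLeft k).tsum_eq]
        simp [mul_assoc]
    _ = conv a (conv b c) g := rfl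

theorem MemL1.add {a b : G → ℂ} (ha : MemL1 a) (hb : MemL1 b) : MemL1 (a + b) :=
  Summable.of_nonneg_of_le (fun _ => norm_nonneg _) (fun g => norm_add_le (a g) (b g))
    (Summable.add ha hb)

theorem MemL1.neg {a : G → ℂ} (ha : MemL1 a) : MemL1 (-a) := by
  simpa [MemL1] using ha

theorem MemL1.zero : MemL1 (0 : G → ℂ) := by
  simpa [MemL1] using (summable_zero : Summable fun _ : G => (0 : ℝ))

theorem conv_add {a b c : G → ℂ} (ha : MemL1 a) (hb : MemL1 b) (hc : MemL1 c) :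
    conv a (b + c) = conv a b + conv a c := by
  funext g
  simp only [conv, Pi.add_apply, mul_add]
  exact Summable.tsum_add (summable_conv_term ha hb g) (summable_conv_term ha hc g)

theorem add_conv {a b c : G → ℂ} (ha : MemL1 a) (hb : MemL1 b) (hc : MemL1 c) :
    conv (a + b) c = conv a c + conv b c := by
  funext g
  simp only [conv, Pi.add_apply, add_mul]
  exact Summable.tsum_add (summable_conv_term ha hc g) (summable_conv_term hb hc g)

theorem conv_zero (a : G → ℂ) : conv a 0 = 0 := by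
  funext g; simp [conv]

theorem zero_conv (a : G → ℂ) : conv 0 a = 0 := by
  funext g; simp [conv]

open Classical in
/-- the unit `δ_1` -/
noncomputable def delta1 : G → ℂ := fun g => if g = 1 then 1 else 0

theorem MemL1.delta1 : MemL1 (delta1 : G → ℂ) := by
  classical
  apply summable_of_ne_finset_zero (s := {1})
  intro g hg
  simp only [Finset.mem_singleton] at hg
  simp [Vale.Agent.Lib.P184.delta1, hg]

theorem delta1_conv (a : G → ℂ) : conv delta1 a = a := by
  classical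
  funext g
  unfold conv
  rw [tsum_eq_single 1]
  · simp [delta1]
  · intro h hh
    simp [delta1, hh]

theorem conv_delta1 (a : G → ℂ) : conv a delta1 = a := by
  classical
  funext g
  unfold conv
  rw [tsum_eq_single g]
  · simp [delta1]
  · intro h hh
    have : h⁻¹ * g ≠ 1 := by
      intro h1
      apply hh
      have := inv_mul_eq_one.mp h1
      exact this
    simp [delta1, this]

/-- the functional `a ↦ ∑_g φ(g) a(g)` -/
noncomputable def trφ (φ : G → ℂ) (a : G → ℂ) : ℂ := ∑' g, φ g * a g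

theorem summable_trφ {φ a : G → ℂ} {M : ℝ} (hφ : ∀ g, ‖φ g‖ ≤ M) (ha : MemL1 a) :
    Summable fun g => φ g * a g := by
  apply Summable.of_norm_bounded (g := fun g => M * ‖a g‖) (ha.mul_left M)
  intro g
  rw [norm_mul]
  gcongr
  exact hφ g

theorem norm_trφ_le {φ a : G → ℂ} {M : ℝ} (hφ : ∀ g, ‖φ g‖ ≤ M) (ha : MemL1 a) :
    ‖trφ φ a‖ ≤ M * nrm a := by
  unfold trφ nrm
  rw [← tsum_mul_left]
  apply tsum_of_norm_bounded (ha.mul_left M).hasSum
  intro g
  rw [norm_mul]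
  gcongr
  exact hφ g

theorem trφ_add {φ a b : G → ℂ} {M : ℝ} (hφ : ∀ g, ‖φ g‖ ≤ M) (ha : MemL1 a) (hb : MemL1 b) :
    trφ φ (a + b) = trφ φ a + trφ φ b := by
  simp only [trφ, Pi.add_apply, mul_add]
  exact Summable.tsum_add (summable_trφ hφ ha) (summable_trφ hφ hb)

theorem trφ_conv {φ a b : G → ℂ} {M : ℝ} (hφ : ∀ g, ‖φ g‖ ≤ M) (ha : MemL1 a) (hb : MemL1 b) :
    trφ φ (conv a b) = ∑' h, ∑' k, φ (h * k) * (a h * b k) := by
  have hsum : Summable (Function.uncurry fun (h g : G) => φ g * (a h * b (h⁻¹ * g))) := by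
    apply Summable.of_norm_bounded (g := fun p : G × G => M * (‖a p.1‖ * ‖b (p.1⁻¹ * p.2)‖))
      ((summable_norm_shear ha hb).mul_left _)
    rintro ⟨k, h⟩
    simp only [Function.uncurry, norm_mul]
    gcongr
    exact hφ _
  calc trφ φ (conv a b) = ∑' g, φ g * ∑' h, a h * b (h⁻¹ * g) := rfl
    _ = ∑' g, ∑' h, φ g * (a h * b (h⁻¹ * g)) := by
        congr 1; funext g; rw [tsum_mul_left]
    _ = ∑' h, ∑' g, φ g * (a h * b (h⁻¹ * g)) := Summable.tsum_comm hsum
    _ = ∑' h, ∑' k, φ (h * k) * (a h * b k) := by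
        congr 1; funext h
        rw [← (Equiv.mulLeft h).tsum_eq]
        simp

theorem trφ_conv_comm {φ a b : G → ℂ} {M : ℝ} (hφ : ∀ g, ‖φ g‖ ≤ M)
    (hcl : ∀ h k, φ (h * k) = φ (k * h)) (ha : MemL1 a) (hb : MemL1 b) :
    trφ φ (conv a b) = trφ φ (conv b a) := by
  rw [trφ_conv hφ ha hb, trφ_conv hφ hb ha]
  have hsum : Summable (Function.uncurry fun (h k : G) => φ (h * k) * (a h * b k)) := by
    apply Summable.of_norm_bounded (g := fun p : G × G => M * (‖a p.1‖ * ‖b p.2‖))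
      ((Summable.mul_of_nonneg ha hb (fun _ => norm_nonneg _) (fun _ => norm_nonneg _)).mul_left _)
    rintro ⟨k, h⟩
    simp only [Function.uncurry, norm_mul]
    gcongr
    exact hφ _
  rw [← Summable.tsum_comm hsum]
  congr 1; funext k; congr 1; funext h
  rw [hcl k h]; ring

end Vale.Agent.Lib.P184
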