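import Vale.Agent.Lib.P184.Twist

namespace Vale.Agent.Lib.P184

open scoped BigOperators

variable {G : Type*} [Group G]

theorem norm_sub_one_le_two {z : ℂ} (hz : ‖z‖ ≤ 1) : ‖z - 1‖ ≤ 2 := by
  calc ‖z - 1‖ ≤ ‖z‖ + ‖(1 : ℂ)‖ := norm_sub_le _ _
    _ ≤ 1 + 1 := by gcongr; simp
    _ = 2 := by norm_num

/-- (F2) there is a finite set `K` such that all unitary characters trivial on `K` move the
idempotent by less than one. -/
theorem exists_finset_close {s : G → ℝ} (hs : Summable s) (hs0 : ∀ g, 0 ≤ s g) :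
    ∃ K : Finset G, ∀ χ : G → ℂ, (∀ g, ‖χ g‖ ≤ 1) → (∀ k ∈ K, χ k = 1) →
      ∑' g, ‖χ g - 1‖ * s g < 1 := by
  have h := tendsto_tsum_compl_atTop_zero s
  have h2 : ∀ᶠ K : Finset G in Filter.atTop, ∑' a : { x // x ∉ K }, s a < 1 / 2 :=
    h.eventually (gt_mem_nhds (by norm_num))
  obtain ⟨K, hK⟩ := h2.exists
  refine ⟨K, fun χ hχ hχK => ?_⟩
  have hsum : Summable fun g => ‖χ g - 1‖ * s g := by
    apply Summable.of_nonneg_of_le (fun g => mul_nonneg (norm_nonneg _) (hs0 g)) _ (hs.mul_left 2)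
    intro g
    exact mul_le_mul_of_nonneg_right (norm_sub_one_le_two (hχ g)) (hs0 g)
  rw [← hsum.sum_add_tsum_subtype_compl K]
  have h0 : ∑ x ∈ K, ‖χ x - 1‖ * s x = 0 := by
    apply Finset.sum_eq_zero
    intro k hk
    simp [hχK k hk]
  rw [h0, zero_add]
  have hle : ∑' x : { x // x ∉ K }, ‖χ x - 1‖ * s x ≤ ∑' x : { x // x ∉ K }, 2 * s x := by
    apply Summable.tsum_le_tsum _ (hsum.subtype _) ((hs.mul_left 2).subtype _)
    intro g
    exact mul_le_mul_of_nonneg_right (norm_sub_one_le_two (hχ g)) (hs0 g)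
  rw [tsum_mul_left] at hle
  linarith

/-- the unitary character `g ↦ exp(i t ψ(g))` -/
noncomputable def expChar (ψ : G →* Multiplicative ℝ) (t : ℝ) : G →* ℂ where
  toFun g := Complex.exp (((t * (ψ g).toAdd : ℝ) : ℂ) * Complex.I)
  map_one' := by simp
  map_mul' g h := by
    rw [← Complex.exp_add]
    congr 1
    simp only [map_mul, toAdd_mul]
    push_cast
    ring

theorem expChar_apply (ψ : G →* Multiplicative ℝ) (t : ℝ) (g : G) :
    expChar ψ t g = Complex.exp (((t * (ψ g).toAdd : ℝ) : ℂ) * Complex.I) := rfl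

theorem norm_expChar (ψ : G →* Multiplicative ℝ) (t : ℝ) (g : G) : ‖expChar ψ t g‖ = 1 := by
  rw [expChar_apply]
  exact Complex.norm_exp_ofReal_mul_I _

theorem tendsto_expChar {s : G → ℝ} (hs : Summable s) (hs0 : ∀ g, 0 ≤ s g)
    (ψ : G →* Multiplicative ℝ) :
    Filter.Tendsto (fun t : ℝ => ∑' g, ‖expChar ψ t g - 1‖ * s g) (nhds 0) (nhds 0) := by
  have := tendsto_tsum_of_dominated_convergence (𝓕 := nhds (0 : ℝ))
    (f := fun t g => ‖expChar ψ t g - 1‖ * s g) (g := fun _ => (0 : ℝ))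
    (bound := fun g => 2 * s g) (hs.mul_left 2) ?_ ?_
  · simpa using this
  · intro g
    have hc : Continuous fun t : ℝ => ‖expChar ψ t g - 1‖ * s g := by
      simp only [expChar_apply]
      fun_prop
    have := hc.tendsto 0
    simpa [expChar_apply] using this
  · filter_upwards with t g
    rw [norm_mul, norm_norm, Real.norm_of_nonneg (hs0 g)]
    exact mul_le_mul_of_nonneg_right (norm_sub_one_le_two (norm_expChar ψ t g).le) (hs0 g)

theorem exp_ne_one_of_small {x : ℝ} (hx0 : x ≠ 0) (hx : |x| < 2 * Real.pi) :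
    Complex.exp ((x : ℂ) * Complex.I) ≠ 1 := by
  intro h
  rw [Complex.exp_eq_one_iff] at h
  obtain ⟨n, hn⟩ := h
  have h1 : (x : ℂ) = n * (2 * Real.pi) := by
    have hI : Complex.I ≠ 0 := Complex.I_ne_zero
    apply mul_right_cancel₀ hI
    rw [hn]; ring
  have h2 : x = n * (2 * Real.pi) := by exact_mod_cast h1
  have hpi : 0 < 2 * Real.pi := by positivity
  have hn0 : n ≠ 0 := by
    rintro rfl
    apply hx0
    simpa using h2
  have h3 : (1 : ℝ) ≤ |(n : ℝ)| := by
    have : (1 : ℤ) ≤ |n| := Int.one_le_abs hn0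
    exact_mod_cast this
  rw [h2, abs_mul, abs_of_pos hpi] at hx
  nlinarith

/-- (F1) a class on which some homomorphism to `ℝ` does not vanish has zero trace coefficient. -/
theorem vanish_of_real_hom {n : Type*} [Fintype n] [DecidableEq n] {E : n → n → G → ℂ}
    (hE : IsIdemFam E) (ψ : G →* Multiplicative ℝ) (g₀ : G) (hne : ψ g₀ ≠ 1) :
    ∑ i, trφ (clsInd (ConjClasses.mk g₀)) (E i i) = 0 := by
  set c : ℝ := (ψ g₀).toAdd with hc
  have hc0 : c ≠ 0 := by
    intro h
    apply hne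
    have : (ψ g₀).toAdd = (1 : Multiplicative ℝ).toAdd := by rw [← hc, h]; rfl
    exact Multiplicative.toAdd.injective this
  have ht := tendsto_expChar (summable_wt hE.1) (wt_nonneg E) ψ
  have hev : ∀ᶠ t : ℝ in nhds 0, ∑' g, ‖expChar ψ t g - 1‖ * wt E g < 1 :=
    ht.eventually (gt_mem_nhds (by norm_num))
  rw [Metric.eventually_nhds_iff] at hev
  obtain ⟨δ, hδ, hball⟩ := hev
  set t : ℝ := min (δ / 2) (1 / |c|) with htdef
  have hcpos : 0 < |c| := abs_pos.mpr hc0
  have htpos : 0 < t := lt_min (by positivity) (by positivity)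
  have ht1 : t ≤ δ / 2 := min_le_left _ _
  have ht2 : t ≤ 1 / |c| := min_le_right _ _
  have hclose := hball (y := t) (by
    rw [Real.dist_eq, sub_zero, abs_of_pos htpos]; linarith)
  apply vanish_of_char hE (expChar ψ t) (fun g => (norm_expChar ψ t g).le) hclose g₀
  rw [expChar_apply]
  apply exp_ne_one_of_small
  · exact mul_ne_zero htpos.ne' hc0
  · rw [abs_mul, abs_of_pos htpos]
    have : t * |c| ≤ 1 := by
      calc t * |c| ≤ 1 / |c| * |c| := by gcongr
        _ = 1 := by field_simp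
    have hpi : (3 : ℝ) < Real.pi := Real.pi_gt_three
    linarith

end Vale.Agent.Lib.P184
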