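import Mathlib

/-!
# P184: basic definitions for the Banach group algebra and the Hattori-Stallings trace
-/

namespace Vale.Agent.Lib.P184

open scoped BigOperators

variable {G : Type*} [Group G]

/-- `a : G → ℂ` belongs to the Banach group algebra `ℓ¹(G)`: the family `|a(g)|` is summable. -/
def MemL1 (a : G → ℂ) : Prop := Summable fun g => ‖a g‖

/-- Convolution `(a * b)(g) = ∑_h a(h) b(h⁻¹ g)`. -/
noncomputable def conv (a b : G → ℂ) : G → ℂ := fun g => ∑' h, a h * b (h⁻¹ * g)

/-- `e` is an idempotent `q × q` matrix over `ℓ¹(G)`: all entries lie in `ℓ¹(G)` and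
`∑_j e_{ij} * e_{jk} = e_{ik}` for the convolution product. -/
structure IsIdemMatrix {q : ℕ} (e : Fin q → Fin q → G → ℂ) : Prop where
  mem : ∀ i j, MemL1 (e i j)
  idem : ∀ i k, (∑ j, conv (e i j) (e j k)) = e i k

/-- The coefficient `τ_C(e) = ∑_{g ∈ C} ∑_i e_{ii}(g)` of the Hattori-Stallings trace
at the conjugacy class `C`. -/
noncomputable def hsCoeff {q : ℕ} (e : Fin q → Fin q → G → ℂ) (C : ConjClasses G) : ℂ :=
  ∑' g : C.carrier, ∑ i, e i i (g : G)

end Vale.Agent.Lib.P184
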