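import Vale.Agent.Lib.P184.Chars
import Vale.Agent.Lib.P184.AbGroup

namespace Vale.Agent.Lib.P184

open scoped BigOperators

variable {G : Type*} [Group G]

theorem IsIdemMatrix.toFam {q : ℕ} {e : Fin q → Fin q → G → ℂ} (he : IsIdemMatrix e) :
    IsIdemFam e := ⟨he.mem, he.idem⟩

/-- The Hattori-Stallings trace of an idempotent matrix over `ℓ¹(G)` is supported on classes whose
image in the abelianization lies in a finite set of elements of finite order. -/
theorem support_abelianization {q : ℕ} (e : Fin q → Fin q → G → ℂ) (he : IsIdemMatrix e) :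
    ∃ F : Finset (Abelianization G), (∀ x ∈ F, IsOfFinOrder x) ∧
      ∀ C : ConjClasses G, hsCoeff e C ≠ 0 → ∀ g ∈ C.carrier, Abelianization.of g ∈ F := by
  classical
  have hE := he.toFam
  obtain ⟨K, hK⟩ := exists_finset_close (summable_wt hE.1) (wt_nonneg e)
  set B : Subgroup (Abelianization G) :=
    Subgroup.closure ((K.image Abelianization.of : Finset (Abelianization G)) : Set (Abelianization G))
    with hB
  have hBfg : B.FG := ⟨K.image Abelianization.of, rfl⟩
  have hfin := finite_torsion_of_fg B hBfg
  refine ⟨hfin.toFinset, fun x hx => ((Set.Finite.mem_toFinset hfin).mp hx).2, ?_⟩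
  intro C hC g hg
  have hCg : C = ConjClasses.mk g := (ConjClasses.mem_carrier_iff_mk_eq.mp hg).symm
  rw [Set.Finite.mem_toFinset hfin]
  by_contra hcon
  apply hC
  rw [hCg, hsCoeff_eq he.mem]
  by_cases hgB : Abelianization.of g ∈ B
  · have hord : ¬ IsOfFinOrder (Abelianization.of g) := fun h => hcon ⟨hgB, h⟩
    obtain ⟨ψ, hψ⟩ := exists_real_hom_of_not_finOrder hord
    exact vanish_of_real_hom hE (ψ.comp Abelianization.of) g hψ
  · obtain ⟨χ, hχ1, hχB, hχg⟩ := exists_char_of_not_mem B hgB
    apply vanish_of_char hE (χ.comp Abelianization.of) (fun a => (hχ1 _).le) _ g hχg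
    apply hK _ (fun a => (hχ1 _).le)
    intro k hk
    apply hχB
    apply Subgroup.subset_closure
    exact Finset.mem_coe.mpr (Finset.mem_image_of_mem _ hk)

end Vale.Agent.Lib.P184
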