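import Vale.Agent.Lib.P184.Reps
import Vale.Agent.Lib.P184.Chars
import Vale.Agent.Lib.P184.MainAb

namespace Vale.Agent.Lib.P184

open scoped BigOperators

variable {G : Type*} [Group G] (H : Subgroup G)

open Classical in
/-- extension by zero of a character of the subgroup `H` -/
noncomputable def extChar (χ : H →* ℂ) (x : G) : ℂ :=
  if hx : x ∈ H then χ ⟨x, hx⟩ else 0

variable {H}

theorem extChar_of_mem (χ : H →* ℂ) {x : G} (hx : x ∈ H) : extChar H χ x = χ ⟨x, hx⟩ := by
  simp [extChar, hx]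

theorem extChar_of_not_mem (χ : H →* ℂ) {x : G} (hx : x ∉ H) : extChar H χ x = 0 := by
  simp [extChar, hx]

theorem extChar_mul (χ : H →* ℂ) {a : G} (ha : a ∈ H) (b : G) :
    extChar H χ a * extChar H χ b = extChar H χ (a * b) := by
  by_cases hb : b ∈ H
  · rw [extChar_of_mem χ ha, extChar_of_mem χ hb, extChar_of_mem χ (H.mul_mem ha hb), ← map_mul]
    rfl
  · have hab : a * b ∉ H := fun h => hb ((H.mul_mem_cancel_left ha).mp h)
    rw [extChar_of_not_mem χ hb, extChar_of_not_mem χ hab, mul_zero]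

theorem norm_extChar_le {χ : H →* ℂ} (hχ : ∀ h, ‖χ h‖ = 1) (x : G) : ‖extChar H χ x‖ ≤ 1 := by
  by_cases hx : x ∈ H
  · rw [extChar_of_mem χ hx, hχ]
  · rw [extChar_of_not_mem χ hx]; simp

/-- the induced (monomial) representation on the cosets of `H` -/
noncomputable def indRep (χ : H →* ℂ) (g : G) : Matrix (G ⧸ H) (G ⧸ H) ℂ :=
  fun c d => extChar H χ ((Quotient.out c)⁻¹ * g * Quotient.out d)

theorem out_inv_mul_mem_iff (c d : G ⧸ H) (g : G) :
    (Quotient.out c)⁻¹ * g * Quotient.out d ∈ H ↔ d = QuotientGroup.mk (g⁻¹ * Quotient.out c) := by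
  have h1 : d = QuotientGroup.mk (Quotient.out d) := (QuotientGroup.out_eq' d).symm
  constructor
  · intro h
    rw [h1, eq_comm, QuotientGroup.eq]
    have : (g⁻¹ * Quotient.out c)⁻¹ * Quotient.out d = (Quotient.out c)⁻¹ * g * Quotient.out d := by
      group
    rw [this]; exact h
  · intro h
    rw [h1, eq_comm, QuotientGroup.eq] at h
    have : (g⁻¹ * Quotient.out c)⁻¹ * Quotient.out d = (Quotient.out c)⁻¹ * g * Quotient.out d := by
      group
    rw [this] at h; exact h

theorem isBddRep_indRep [Fintype (G ⧸ H)] [DecidableEq (G ⧸ H)] {χ : H →* ℂ}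
    (hχ : ∀ h, ‖χ h‖ = 1) : IsBddRep (indRep χ) where
  map_one := by
    ext c d
    by_cases hcd : c = d
    · subst hcd
      have : (Quotient.out c)⁻¹ * 1 * Quotient.out c = 1 := by group
      simp only [indRep, this, Matrix.one_apply_eq]
      rw [extChar_of_mem χ H.one_mem]
      exact map_one _
    · rw [Matrix.one_apply_ne hcd]
      apply extChar_of_not_mem
      rw [out_inv_mul_mem_iff]
      intro h
      apply hcd
      rw [h]
      simp
  map_mul := by
    intro g g'
    ext c d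
    rw [Matrix.mul_apply]
    set f₀ : G ⧸ H := QuotientGroup.mk (g⁻¹ * Quotient.out c) with hf₀
    rw [Finset.sum_eq_single f₀]
    · have ha : (Quotient.out c)⁻¹ * g * Quotient.out f₀ ∈ H := (out_inv_mul_mem_iff c f₀ g).mpr rfl
      simp only [indRep]
      rw [extChar_mul χ ha]
      congr 1
      group
    · intro f _ hf
      have : (Quotient.out c)⁻¹ * g * Quotient.out f ∉ H := fun h =>
        hf ((out_inv_mul_mem_iff c f g).mp h)
      simp only [indRep]
      rw [extChar_of_not_mem χ this, zero_mul]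
    · intro h; exact absurd (Finset.mem_univ _) h
  bdd := fun g c d => norm_extChar_le hχ _

theorem re_extChar_le {χ : H →* ℂ} (hχ : ∀ h, ‖χ h‖ = 1) (x : G) :
    (extChar H χ x).re ≤ (extChar H 1 x).re := by
  by_cases hx : x ∈ H
  · rw [extChar_of_mem χ hx, extChar_of_mem 1 hx]
    calc (χ ⟨x, hx⟩).re ≤ ‖χ ⟨x, hx⟩‖ := Complex.re_le_norm _
      _ = 1 := hχ _
  · rw [extChar_of_not_mem χ hx, extChar_of_not_mem 1 hx]

theorem eq_one_of_norm_one_of_re {z : ℂ} (hz : ‖z‖ = 1) (hre : 1 ≤ z.re) : z = 1 := by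
  have h1 : z.re ^ 2 + z.im ^ 2 = 1 := by
    have := Complex.sq_norm z
    rw [hz, Complex.normSq_apply] at this
    nlinarith
  have h2 : z.re ≤ 1 := by
    calc z.re ≤ ‖z‖ := Complex.re_le_norm _
      _ = 1 := hz
  have h3 : z.re = 1 := le_antisymm h2 hre
  have h4 : z.im = 0 := by
    rw [h3] at h1
    nlinarith
  exact Complex.ext (by simpa using h3) (by simpa using h4)

/-- if the traces of the induced representations of `χ` and of the trivial character agree at an
element `h` of `H`, then `χ h = 1`. -/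
theorem char_eq_one_of_trace_eq [Fintype (G ⧸ H)] {χ : H →* ℂ} (hχ : ∀ h, ‖χ h‖ = 1) (h : H)
    (htr : Matrix.trace (indRep χ (h : G)) = Matrix.trace (indRep (1 : H →* ℂ) (h : G))) :
    χ h = 1 := by
  by_contra hne
  have hre := congrArg Complex.re htr
  simp only [Matrix.trace, Matrix.diag_apply, Complex.re_sum] at hre
  have hlt : ∑ c : G ⧸ H, (indRep χ (h : G) c c).re
      < ∑ c : G ⧸ H, (indRep (1 : H →* ℂ) (h : G) c c).re := by
    apply Finset.sum_lt_sum
    · intro c _
      exact re_extChar_le hχ _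
    · refine ⟨QuotientGroup.mk 1, Finset.mem_univ _, ?_⟩
      set u : G := Quotient.out (QuotientGroup.mk 1 : G ⧸ H) with hu
      have huH : u ∈ H := by
        have h1 : (QuotientGroup.mk u : G ⧸ H) = QuotientGroup.mk 1 := QuotientGroup.out_eq' _
        rw [QuotientGroup.eq] at h1
        have h2 : u⁻¹ ∈ H := by simpa using h1
        exact (H.inv_mem_iff).mp h2
      have hx : u⁻¹ * (h : G) * u ∈ H := H.mul_mem (H.mul_mem (H.inv_mem huH) h.2) huH
      have hχx : χ ⟨u⁻¹ * (h : G) * u, hx⟩ = χ h := by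
        have h1 : (⟨u⁻¹ * (h : G) * u, hx⟩ : H) = (⟨u, huH⟩ : H)⁻¹ * h * ⟨u, huH⟩ := rfl
        rw [h1, map_mul, map_mul, mul_comm, ← mul_assoc, ← map_mul, mul_inv_cancel, map_one, one_mul]
      show (extChar H χ (u⁻¹ * (h : G) * u)).re < (extChar H 1 (u⁻¹ * (h : G) * u)).re
      rw [extChar_of_mem χ hx, extChar_of_mem 1 hx, hχx]
      by_contra hge
      push Not at hge
      exact hne (eq_one_of_norm_one_of_re (hχ h) hge)
  exact absurd hre hlt.ne

end Vale.Agent.Lib.P184
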