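import Vale.Agent.Lib.P184.Reps
import Vale.Agent.Lib.P184.MainAb

namespace Vale.Agent.Lib.P184

open scoped BigOperators

variable {G : Type*} [Group G] {k : ℕ}

theorem isBddRep_of_unitary (π : G →* Matrix.unitaryGroup (Fin k) ℂ) :
    IsBddRep (fun g => ((π g : Matrix.unitaryGroup (Fin k) ℂ) : Matrix (Fin k) (Fin k) ℂ)) where
  map_one := by simp
  map_mul := by intro g h; simp
  bdd := by
    intro g r s
    exact entry_norm_bound_of_unitary (π g).2 r s

/-- If the character of a pointwise continuous family of finite dimensional unitary representations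
over a preconnected parameter space is not constant at `g`, then the Hattori-Stallings coefficient
at the class of `g` vanishes. -/
theorem vanish_of_unitary_family {q : ℕ} (e : Fin q → Fin q → G → ℂ) (he : IsIdemMatrix e)
    {X : Type*} [TopologicalSpace X] [PreconnectedSpace X]
    (π : X → G →* Matrix.unitaryGroup (Fin k) ℂ)
    (hπ : ∀ g, Continuous fun x => ((π x g : Matrix.unitaryGroup (Fin k) ℂ) : Matrix (Fin k) (Fin k) ℂ))
    (g : G) (x y : X)
    (hne : Matrix.trace ((π x g : Matrix.unitaryGroup (Fin k) ℂ) : Matrix (Fin k) (Fin k) ℂ)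
      ≠ Matrix.trace ((π y g : Matrix.unitaryGroup (Fin k) ℂ) : Matrix (Fin k) (Fin k) ℂ)) :
    hsCoeff e (ConjClasses.mk g) = 0 := by
  rw [hsCoeff_eq he.mem]
  have hloc := locallyConstant_twisted he.toFam
    (fun x g => ((π x g : Matrix.unitaryGroup (Fin k) ℂ) : Matrix (Fin k) (Fin k) ℂ))
    (fun x => isBddRep_of_unitary (π x)) hπ g
  have heq := hloc.apply_eq_of_preconnectedSpace x y
  by_contra h0
  exact hne (mul_right_cancel₀ h0 heq)

end Vale.Agent.Lib.P184
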