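import Vale.Agent.Lib.P184.Induced

namespace Vale.Agent.Lib.P184

open scoped BigOperators

variable {G : Type*} [Group G] {H : Subgroup G}

theorem exists_finset_tail {s : G → ℝ} (hs : Summable s) (hs0 : ∀ g, 0 ≤ s g) {ε : ℝ}
    (hε : 0 < ε) :
    ∃ K : Finset G, ∀ w : G → ℝ, (∀ g, 0 ≤ w g) → (∀ g, w g ≤ 2) → (∀ k ∈ K, w k = 0) →
      ∑' g, w g * s g < ε := by
  have h := tendsto_tsum_compl_atTop_zero s
  have h2 : ∀ᶠ K : Finset G in Filter.atTop, ∑' a : { x // x ∉ K }, s a < ε / 2 :=
    h.eventually (gt_mem_nhds (by positivity))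
  obtain ⟨K, hK⟩ := h2.exists
  refine ⟨K, fun w hw0 hw2 hwK => ?_⟩
  have hsum : Summable fun g => w g * s g := by
    apply Summable.of_nonneg_of_le (fun g => mul_nonneg (hw0 g) (hs0 g)) _ (hs.mul_left 2)
    intro g
    exact mul_le_mul_of_nonneg_right (hw2 g) (hs0 g)
  rw [← hsum.sum_add_tsum_subtype_compl K]
  have h0 : ∑ x ∈ K, w x * s x = 0 := by
    apply Finset.sum_eq_zero
    intro k hk
    simp [hwK k hk]
  rw [h0, zero_add]
  have hle : ∑' x : { x // x ∉ K }, w x * s x ≤ ∑' x : { x // x ∉ K }, 2 * s x := by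
    apply Summable.tsum_le_tsum _ (hsum.subtype _) ((hs.mul_left 2).subtype _)
    intro g
    exact mul_le_mul_of_nonneg_right (hw2 g) (hs0 g)
  rw [tsum_mul_left] at hle
  linarith

theorem norm_le_wt {n : Type*} [Fintype n] (E : n → n → G → ℂ) (i j : n) (g : G) :
    ‖E i j g‖ ≤ wt E g := by
  unfold wt
  calc ‖E i j g‖ ≤ ∑ j', ‖E i j' g‖ :=
        Finset.single_le_sum (f := fun j' => ‖E i j' g‖) (fun _ _ => norm_nonneg _) (Finset.mem_univ j)
    _ ≤ ∑ i', ∑ j', ‖E i' j' g‖ :=
        Finset.single_le_sum (f := fun i' => ∑ j', ‖E i' j' g‖)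
          (fun _ _ => Finset.sum_nonneg fun _ _ => norm_nonneg _) (Finset.mem_univ i)

theorem exists_finset_close_ind [Fintype (G ⧸ H)] [DecidableEq (G ⧸ H)] {q : ℕ}
    {E : Fin q → Fin q → G → ℂ} (hE : ∀ i j, MemL1 (E i j)) :
    ∃ K : Finset H, ∀ χ : H →* ℂ, (∀ h, ‖χ h‖ = 1) → (∀ k ∈ K, χ k = 1) →
      ∑ a, ∑ b, nrm (twistFam E (indRep χ) a b - twistFam E (indRep (1 : H →* ℂ)) a b) < 1 := by
  classical
  set N : ℕ := Fintype.card (Fin q × (G ⧸ H)) with hN
  have hεpos : (0 : ℝ) < 1 / ((N : ℝ) * N + 1) := by positivity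
  obtain ⟨K, hK⟩ := exists_finset_tail (summable_wt hE) (wt_nonneg E) hεpos
  let K₁ : Finset G := (K ×ˢ (Finset.univ : Finset ((G ⧸ H) × (G ⧸ H)))).image
    (fun x => (Quotient.out x.2.1)⁻¹ * x.1 * Quotient.out x.2.2)
  refine ⟨K₁.subtype (· ∈ H), fun χ hχ hχK => ?_⟩
  have hterm : ∀ a b : Fin q × (G ⧸ H),
      nrm (twistFam E (indRep χ) a b - twistFam E (indRep (1 : H →* ℂ)) a b)
        < 1 / ((N : ℝ) * N + 1) := by
    intro a b
    set w : G → ℝ := fun g => ‖indRep χ g a.2 b.2 - indRep (1 : H →* ℂ) g a.2 b.2‖ with hw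
    have hw0 : ∀ g, 0 ≤ w g := fun g => norm_nonneg _
    have hw2 : ∀ g, w g ≤ 2 := by
      intro g
      calc w g ≤ ‖indRep χ g a.2 b.2‖ + ‖indRep (1 : H →* ℂ) g a.2 b.2‖ := norm_sub_le _ _
        _ ≤ 1 + 1 := add_le_add (norm_extChar_le hχ _) (norm_extChar_le (fun _ => by simp) _)
        _ = 2 := by norm_num
    have hwK : ∀ k ∈ K, w k = 0 := by
      intro k hk
      simp only [hw, indRep]
      by_cases hx : (Quotient.out a.2)⁻¹ * k * Quotient.out b.2 ∈ H
      · rw [extChar_of_mem χ hx, extChar_of_mem 1 hx]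
        have : χ ⟨_, hx⟩ = 1 := by
          apply hχK
          rw [Finset.mem_subtype]
          apply Finset.mem_image.mpr
          exact ⟨(k, (a.2, b.2)), by simp [hk], rfl⟩
        rw [this]; simp
      · rw [extChar_of_not_mem χ hx, extChar_of_not_mem 1 hx]; simp
    have hlt := hK w hw0 hw2 hwK
    refine lt_of_le_of_lt ?_ hlt
    unfold nrm
    have hsum : Summable fun g => w g * wt E g := by
      apply Summable.of_nonneg_of_le (fun g => mul_nonneg (hw0 g) (wt_nonneg E g)) _
        ((summable_wt hE).mul_left 2)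
      intro g
      exact mul_le_mul_of_nonneg_right (hw2 g) (wt_nonneg E g)
    have hle : ∀ g, ‖(twistFam E (indRep χ) a b - twistFam E (indRep (1 : H →* ℂ)) a b) g‖
        ≤ w g * wt E g := by
      intro g
      simp only [twistFam, Pi.sub_apply]
      rw [← mul_sub, norm_mul, mul_comm]
      exact mul_le_mul_of_nonneg_left (norm_le_wt E _ _ g) (hw0 g)
    exact Summable.tsum_le_tsum hle
      (Summable.of_nonneg_of_le (fun _ => norm_nonneg _) hle hsum) hsum
  have hsumle : ∑ a, ∑ b, nrm (twistFam E (indRep χ) a b - twistFam E (indRep (1 : H →* ℂ)) a b)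
      ≤ ∑ _a : Fin q × (G ⧸ H), ∑ _b : Fin q × (G ⧸ H), 1 / ((N : ℝ) * N + 1) :=
    Finset.sum_le_sum fun a _ => Finset.sum_le_sum fun b _ => (hterm a b).le
  refine lt_of_le_of_lt hsumle ?_
  simp only [Finset.sum_const, Finset.card_univ, ← hN, nsmul_eq_mul]
  rw [← mul_assoc, mul_one_div, div_lt_one (by positivity)]
  linarith

theorem expChar_zero (ψ : H →* Multiplicative ℝ) : expChar ψ 0 = 1 := by
  ext h
  simp [expChar_apply]

theorem continuous_extChar_exp (ψ : H →* Multiplicative ℝ) (x : G) :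
    Continuous fun t : ℝ => extChar H (expChar ψ t) x := by
  by_cases hx : x ∈ H
  · simp only [extChar_of_mem _ hx, expChar_apply]
    fun_prop
  · simp only [extChar_of_not_mem _ hx]
    exact continuous_const

/-- **Virtual abelianization theorem.** -/
theorem support_virtual_abelianization {q : ℕ} (e : Fin q → Fin q → G → ℂ) (he : IsIdemMatrix e)
    (H : Subgroup G) [H.FiniteIndex] :
    ∃ F : Finset (Abelianization H), (∀ x ∈ F, IsOfFinOrder x) ∧
      ∀ h : H, hsCoeff e (ConjClasses.mk (h : G)) ≠ 0 → Abelianization.of h ∈ F := by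
  classical
  let _ : Fintype (G ⧸ H) := Fintype.ofFinite _
  have hE := he.toFam
  obtain ⟨K, hK⟩ := exists_finset_close_ind (H := H) hE.1
  set B : Subgroup (Abelianization H) :=
    Subgroup.closure ((K.image Abelianization.of : Finset (Abelianization H)) : Set (Abelianization H))
    with hB
  have hBfg : B.FG := ⟨K.image Abelianization.of, rfl⟩
  have hfin := finite_torsion_of_fg B hBfg
  refine ⟨hfin.toFinset, fun x hx => ((Set.Finite.mem_toFinset hfin).mp hx).2, ?_⟩
  intro h hC
  rw [Set.Finite.mem_toFinset hfin]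
  rw [hsCoeff_eq he.mem] at hC
  by_contra hcon
  by_cases hgB : Abelianization.of h ∈ B
  · have hord : ¬ IsOfFinOrder (Abelianization.of h) := fun h' => hcon ⟨hgB, h'⟩
    obtain ⟨ψ₀, hψ₀⟩ := exists_real_hom_of_not_finOrder hord
    set ψ : H →* Multiplicative ℝ := ψ₀.comp Abelianization.of with hψ
    have hψh : ψ h ≠ 1 := hψ₀
    have hloc := locallyConstant_twisted hE (fun t : ℝ => indRep (expChar ψ t))
      (fun t => isBddRep_indRep (norm_expChar ψ t))
      (fun g => continuous_pi fun c => continuous_pi fun d => continuous_extChar_exp ψ _) (h : G)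
    set lam : ℝ := (ψ h).toAdd with hlam
    have hlam0 : lam ≠ 0 := by
      intro h0
      apply hψh
      have : (ψ h).toAdd = (1 : Multiplicative ℝ).toAdd := by rw [← hlam, h0]; rfl
      exact Multiplicative.toAdd.injective this
    have heq := hloc.apply_eq_of_preconnectedSpace (1 / lam) 0
    have htr := mul_right_cancel₀ hC heq
    rw [expChar_zero] at htr
    have h1 := char_eq_one_of_trace_eq (norm_expChar ψ (1 / lam)) h htr
    rw [expChar_apply, ← hlam] at h1
    have h2 : (1 / lam * lam : ℝ) = 1 := by field_simp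
    rw [h2] at h1
    exact exp_ne_one_of_small (x := 1) one_ne_zero
      (by rw [abs_one]; linarith [Real.pi_gt_three]) h1
  · obtain ⟨χ₀, hχ1, hχB, hχg⟩ := exists_char_of_not_mem B hgB
    set χ : H →* ℂ := χ₀.comp Abelianization.of with hχ
    have hχn : ∀ x, ‖χ x‖ = 1 := fun x => hχ1 _
    have hclose := hK χ hχn (by
      intro k hk
      apply hχB
      apply Subgroup.subset_closure
      exact Finset.mem_coe.mpr (Finset.mem_image_of_mem _ hk))
    have key := trace_eq_of_close (hE.twistFam (isBddRep_indRep (χ := (1 : H →* ℂ)) (fun _ => by simp)))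
      (hE.twistFam (isBddRep_indRep hχn))
      (clsInd_norm_le (ConjClasses.mk (h : G))) (clsInd_comm _) hclose
    rw [trace_twistFam hE.1 (isBddRep_indRep (χ := (1 : H →* ℂ)) (fun _ => by simp)),
      trace_twistFam hE.1 (isBddRep_indRep hχn)] at key
    have htr := mul_right_cancel₀ hC key
    exact hχg (char_eq_one_of_trace_eq hχn h htr.symm)

end Vale.Agent.Lib.P184
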