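import Vale.Agent.Lib.P184.Twist

namespace Vale.Agent.Lib.P184

open scoped BigOperators

variable {G : Type*} [Group G] {κ : Type*} [Fintype κ] [DecidableEq κ]

/-- a bounded multiplicative matrix valued function -/
structure IsBddRep (ρ : G → Matrix κ κ ℂ) : Prop where
  map_one : ρ 1 = 1
  map_mul : ∀ g h, ρ (g * h) = ρ g * ρ h
  bdd : ∀ g r s, ‖ρ g r s‖ ≤ 1

theorem MemL1.twistR {χ : G → ℂ} (hχ : ∀ g, ‖χ g‖ ≤ 1) {a : G → ℂ} (ha : MemL1 a) :
    MemL1 (fun g => a g * χ g) := by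
  have := ha.twist hχ
  simpa [mul_comm] using this

theorem conv_twist_matrix {ρ : G → Matrix κ κ ℂ} (hρ : IsBddRep ρ) {a b : G → ℂ}
    (ha : MemL1 a) (hb : MemL1 b) (r t : κ) (g : G) :
    ∑ s, conv (fun h => a h * ρ h r s) (fun h => b h * ρ h s t) g = conv a b g * ρ g r t := by
  unfold conv
  rw [← Summable.tsum_finsetSum (fun s _ => summable_conv_term
    (ha.twistR (fun h => hρ.bdd h r s)) (hb.twistR (fun h => hρ.bdd h s t)) g)]
  rw [← tsum_mul_right]
  congr 1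
  funext h
  have h1 : ρ g r t = ∑ s, ρ h r s * ρ (h⁻¹ * g) s t := by
    rw [← Matrix.mul_apply, ← hρ.map_mul]; simp
  rw [h1, Finset.mul_sum]
  apply Finset.sum_congr rfl
  intro s _
  ring

/-- the twisted matrix -/
def twistFam {q : ℕ} (E : Fin q → Fin q → G → ℂ) (ρ : G → Matrix κ κ ℂ) :
    (Fin q × κ) → (Fin q × κ) → G → ℂ :=
  fun a b g => E a.1 b.1 g * ρ g a.2 b.2

theorem IsIdemFam.twistFam {q : ℕ} {E : Fin q → Fin q → G → ℂ} (hE : IsIdemFam E)
    {ρ : G → Matrix κ κ ℂ} (hρ : IsBddRep ρ) : IsIdemFam (twistFam E ρ) := by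
  refine ⟨fun a b => (hE.1 a.1 b.1).twistR (fun g => hρ.bdd g a.2 b.2), ?_⟩
  rintro ⟨i, r⟩ ⟨l, t⟩
  funext g
  rw [Finset.sum_apply, Fintype.sum_prod_type]
  have h1 : ∀ j, ∑ s, conv (Vale.Agent.Lib.P184.twistFam E ρ (i, r) (j, s))
      (Vale.Agent.Lib.P184.twistFam E ρ (j, s) (l, t)) g = conv (E i j) (E j l) g * ρ g r t := by
    intro j
    exact conv_twist_matrix hρ (hE.1 i j) (hE.1 j l) r t g
  simp_rw [h1]
  rw [← Finset.sum_mul]
  have := congrFun (hE.2 i l) g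
  rw [Finset.sum_apply] at this
  rw [this]
  rfl

theorem trace_const_on_class {ρ : G → Matrix κ κ ℂ} (hρ : IsBddRep ρ) {g₀ g : G}
    (hg : g ∈ (ConjClasses.mk g₀).carrier) : Matrix.trace (ρ g) = Matrix.trace (ρ g₀) := by
  rw [ConjClasses.mem_carrier_iff_mk_eq, ConjClasses.mk_eq_mk_iff_isConj, isConj_iff] at hg
  obtain ⟨c, hc⟩ := hg
  rw [← hc, hρ.map_mul, Matrix.trace_mul_comm, ← hρ.map_mul]
  congr 2
  group

theorem trace_twistFam {q : ℕ} {E : Fin q → Fin q → G → ℂ} (hE : ∀ i j, MemL1 (E i j))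
    {ρ : G → Matrix κ κ ℂ} (hρ : IsBddRep ρ) (g₀ : G) :
    ∑ a, trφ (clsInd (ConjClasses.mk g₀)) (twistFam E ρ a a)
      = Matrix.trace (ρ g₀) * ∑ i, trφ (clsInd (ConjClasses.mk g₀)) (E i i) := by
  rw [Fintype.sum_prod_type, Finset.mul_sum]
  apply Finset.sum_congr rfl
  intro i _
  unfold trφ
  have hs : ∀ r ∈ (Finset.univ : Finset κ),
      Summable fun g => clsInd (ConjClasses.mk g₀) g * twistFam E ρ (i, r) (i, r) g :=
    fun r _ => summable_trφ (clsInd_norm_le _) ((hE i i).twistR (fun g => hρ.bdd g r r))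
  rw [← Summable.tsum_finsetSum hs]
  rw [← tsum_mul_left]
  congr 1
  funext g
  by_cases hg : g ∈ (ConjClasses.mk g₀).carrier
  · rw [← trace_const_on_class hρ hg, Matrix.trace, Finset.sum_mul]
    apply Finset.sum_congr rfl
    intro r _
    simp only [twistFam, Matrix.diag_apply]
    ring
  · simp [clsInd, hg]

theorem tendsto_dist_twistFam {q : ℕ} {E : Fin q → Fin q → G → ℂ} (hE : ∀ i j, MemL1 (E i j))
    {X : Type*} [TopologicalSpace X] (ρ : X → G → Matrix κ κ ℂ)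
    (hρ : ∀ x, IsBddRep (ρ x)) (hcont : ∀ g, Continuous fun x => ρ x g) (x₀ : X) :
    Filter.Tendsto (fun x => ∑ a, ∑ b, nrm (twistFam E (ρ x) a b - twistFam E (ρ x₀) a b))
      (nhds x₀) (nhds 0) := by
  have h0 : (0 : ℝ) = ∑ _a : Fin q × κ, ∑ _b : Fin q × κ, (0 : ℝ) := by simp
  rw [h0]
  apply tendsto_finsetSum
  intro a _
  apply tendsto_finsetSum
  intro b _
  unfold nrm
  have := tendsto_tsum_of_dominated_convergence (𝓕 := nhds x₀)
    (f := fun x g => ‖(twistFam E (ρ x) a b - twistFam E (ρ x₀) a b) g‖) (g := fun _ => (0 : ℝ))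
    (bound := fun g => 2 * ‖E a.1 b.1 g‖) ((hE a.1 b.1).mul_left 2) ?_ ?_
  · simpa using this
  · intro g
    have hc : Continuous fun x => ‖(twistFam E (ρ x) a b - twistFam E (ρ x₀) a b) g‖ := by
      have h1 : Continuous fun x => ρ x g a.2 b.2 :=
        (continuous_apply b.2).comp ((continuous_apply a.2).comp (hcont g))
      simp only [twistFam, Pi.sub_apply]
      fun_prop
    have := hc.tendsto x₀
    simpa using this
  · filter_upwards with x g
    rw [norm_norm]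
    simp only [twistFam, Pi.sub_apply]
    rw [← mul_sub, norm_mul, mul_comm]
    apply mul_le_mul_of_nonneg_right _ (norm_nonneg _)
    calc ‖ρ x g a.2 b.2 - ρ x₀ g a.2 b.2‖ ≤ ‖ρ x g a.2 b.2‖ + ‖ρ x₀ g a.2 b.2‖ := norm_sub_le _ _
      _ ≤ 1 + 1 := add_le_add ((hρ x).bdd _ _ _) ((hρ x₀).bdd _ _ _)
      _ = 2 := by norm_num

/-- local constancy of the twisted trace along a continuous family of bounded representations -/
theorem locallyConstant_twisted {q : ℕ} {E : Fin q → Fin q → G → ℂ} (hE : IsIdemFam E)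
    {X : Type*} [TopologicalSpace X] (ρ : X → G → Matrix κ κ ℂ)
    (hρ : ∀ x, IsBddRep (ρ x)) (hcont : ∀ g, Continuous fun x => ρ x g) (g₀ : G) :
    IsLocallyConstant fun x =>
      Matrix.trace (ρ x g₀) * ∑ i, trφ (clsInd (ConjClasses.mk g₀)) (E i i) := by
  rw [IsLocallyConstant.iff_eventually_eq]
  intro x₀
  have ht := tendsto_dist_twistFam hE.1 ρ hρ hcont x₀
  have hev : ∀ᶠ x in nhds x₀,
      ∑ a, ∑ b, nrm (twistFam E (ρ x) a b - twistFam E (ρ x₀) a b) < 1 :=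
    ht.eventually (gt_mem_nhds (by norm_num))
  filter_upwards [hev] with x hx
  have key := trace_eq_of_close (hE.twistFam (hρ x₀)) (hE.twistFam (hρ x))
    (clsInd_norm_le (ConjClasses.mk g₀)) (clsInd_comm _) hx
  rw [trace_twistFam hE.1 (hρ x₀), trace_twistFam hE.1 (hρ x)] at key
  exact key.symm

end Vale.Agent.Lib.P184
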