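import Vale.Agent.Lib.P184.Algebra
import Vale.Agent.Lib.P184.Abstract

namespace Vale.Agent.Lib.P184

open scoped BigOperators

variable {G : Type*} [Group G]

/-- `ℓ¹(G)` as an additive subgroup of all functions -/
def L1sub (G : Type*) [Group G] : AddSubgroup (G → ℂ) where
  carrier := {a | MemL1 a}
  add_mem' := fun ha hb => MemL1.add ha hb
  zero_mem' := MemL1.zero
  neg_mem' := fun ha => MemL1.neg ha

/-- `ℓ¹(G)` as a type -/
def L1 (G : Type*) [Group G] : Type _ := ↥(L1sub G)

noncomputable instance : AddCommGroup (L1 G) := inferInstanceAs (AddCommGroup ↥(L1sub G))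

/-- underlying function -/
def L1.val (a : L1 G) : G → ℂ := Subtype.val a

theorem L1.mem (a : L1 G) : MemL1 a.val := Subtype.property a

/-- constructor -/
def L1.mk (a : G → ℂ) (ha : MemL1 a) : L1 G := ⟨a, ha⟩

@[simp] theorem L1.val_mk (a : G → ℂ) (ha : MemL1 a) : (L1.mk a ha).val = a := rfl

theorem L1.ext {a b : L1 G} (h : a.val = b.val) : a = b := Subtype.ext h

@[simp] theorem L1.val_add (a b : L1 G) : (a + b).val = a.val + b.val := rfl
@[simp] theorem L1.val_zero : (0 : L1 G).val = 0 := rfl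
@[simp] theorem L1.val_neg (a : L1 G) : (-a).val = -a.val := rfl
@[simp] theorem L1.val_sub (a b : L1 G) : (a - b).val = a.val - b.val := rfl

noncomputable instance : Ring (L1 G) :=
  { (inferInstance : AddCommGroup (L1 G)) with
    mul := fun a b => L1.mk (conv a.val b.val) (a.mem.conv b.mem)
    one := L1.mk delta1 MemL1.delta1
    mul_assoc := fun a b c => L1.ext (conv_assoc a.mem b.mem c.mem)
    one_mul := fun a => L1.ext (delta1_conv a.val)
    mul_one := fun a => L1.ext (conv_delta1 a.val)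
    left_distrib := fun a b c => L1.ext (conv_add a.mem b.mem c.mem)
    right_distrib := fun a b c => L1.ext (add_conv a.mem b.mem c.mem)
    zero_mul := fun a => L1.ext (zero_conv a.val)
    mul_zero := fun a => L1.ext (conv_zero a.val) }

@[simp] theorem L1.val_mul (a b : L1 G) : (a * b).val = conv a.val b.val := rfl

/-- `val` as an additive hom -/
def L1.valHom : L1 G →+ (G → ℂ) where
  toFun := L1.val
  map_zero' := rfl
  map_add' _ _ := rfl

theorem L1.val_sum {ι : Type*} (s : Finset ι) (F : ι → L1 G) :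
    (∑ i ∈ s, F i).val = ∑ i ∈ s, (F i).val :=
  map_sum (L1.valHom (G := G)) F s

/-- the norm on `L1 G` -/
noncomputable def L1.N (a : L1 G) : ℝ := nrm a.val

theorem L1.N_nonneg (a : L1 G) : 0 ≤ a.N := nrm_nonneg _

theorem L1.N_zero : (0 : L1 G).N = 0 := by simp [L1.N, nrm]

theorem L1.N_add (a b : L1 G) : (a + b).N ≤ a.N + b.N := by
  unfold L1.N nrm
  rw [← Summable.tsum_add a.mem b.mem]
  exact Summable.tsum_le_tsum (fun g => norm_add_le _ _) (a + b).mem (Summable.add a.mem b.mem)

theorem L1.N_mul (a b : L1 G) : (a * b).N ≤ a.N * b.N := nrm_conv_le a.mem b.mem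

/-- the bounded functional attached to a bounded function `φ` -/
noncomputable def L1.tr (φ : G → ℂ) (M : ℝ) (hφ : ∀ g, ‖φ g‖ ≤ M) : L1 G →+ ℂ where
  toFun a := trφ φ a.val
  map_zero' := by simp [trφ]
  map_add' a b := trφ_add hφ a.mem b.mem

/-- an idempotent matrix over `ℓ¹(G)` indexed by a finite type -/
def IsIdemFam {n : Type*} [Fintype n] (E : n → n → G → ℂ) : Prop :=
  (∀ i j, MemL1 (E i j)) ∧ ∀ i k, (∑ j, conv (E i j) (E j k)) = E i k

/-- Idempotent matrices over `ℓ¹(G)` at `ℓ¹`-distance `< 1` have the same value under every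
bounded class-function trace. -/
theorem trace_eq_of_close {n : Type*} [Fintype n] [DecidableEq n] {E F : n → n → G → ℂ}
    (hE : IsIdemFam E) (hF : IsIdemFam F) {φ : G → ℂ} {M : ℝ} (hφ : ∀ g, ‖φ g‖ ≤ M)
    (hcl : ∀ h k, φ (h * k) = φ (k * h))
    (hclose : ∑ i, ∑ j, nrm (F i j - E i j) < 1) :
    ∑ i, trφ φ (E i i) = ∑ i, trφ φ (F i i) := by
  have hM : 0 ≤ M := (norm_nonneg _).trans (hφ 1)
  let E' : Matrix n n (L1 G) := fun i j => L1.mk (E i j) (hE.1 i j)
  let F' : Matrix n n (L1 G) := fun i j => L1.mk (F i j) (hF.1 i j)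
  have hE' : E' * E' = E' := by
    ext i k
    apply L1.ext
    rw [Matrix.mul_apply, L1.val_sum]
    exact hE.2 i k
  have hF' : F' * F' = F' := by
    ext i k
    apply L1.ext
    rw [Matrix.mul_apply, L1.val_sum]
    exact hF.2 i k
  have key := trace_eq_of_idem (A := Matrix n n (L1 G)) (matN L1.N) (matN_nonneg L1.N_nonneg)
    (matN_mul_le L1.N_nonneg L1.N_zero L1.N_add L1.N_mul)
    (matTr (L1.tr φ M hφ)) M
    (matTr_bound _ L1.N_nonneg hM (fun x => norm_trφ_le hφ x.mem))
    (matTr_comm _ (fun x y => trφ_conv_comm hφ hcl x.mem y.mem))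
    hE' hF' hclose
  exact key

end Vale.Agent.Lib.P184
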