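import Vale.Agent.Lib.P184.Ring

namespace Vale.Agent.Lib.P184

open scoped BigOperators

variable {G : Type*} [Group G]

open Classical in
/-- indicator function of a conjugacy class -/
noncomputable def clsInd (C : ConjClasses G) : G → ℂ := fun g => if g ∈ C.carrier then 1 else 0

theorem clsInd_norm_le (C : ConjClasses G) (g : G) : ‖clsInd C g‖ ≤ 1 := by
  unfold clsInd
  split_ifs <;> simp

theorem clsInd_comm (C : ConjClasses G) (h k : G) : clsInd C (h * k) = clsInd C (k * h) := by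
  have : (h * k ∈ C.carrier) ↔ (k * h ∈ C.carrier) := by
    rw [ConjClasses.mem_carrier_iff_mk_eq, ConjClasses.mem_carrier_iff_mk_eq]
    have : ConjClasses.mk (h * k) = ConjClasses.mk (k * h) := by
      rw [ConjClasses.mk_eq_mk_iff_isConj, isConj_iff]
      exact ⟨h⁻¹, by group⟩
    rw [this]
  unfold clsInd
  by_cases h1 : h * k ∈ C.carrier
  · rw [if_pos h1, if_pos (this.mp h1)]
  · rw [if_neg h1, if_neg (fun h2 => h1 (this.mpr h2))]

theorem hsCoeff_eq {q : ℕ} {e : Fin q → Fin q → G → ℂ} (he : ∀ i j, MemL1 (e i j))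
    (C : ConjClasses G) : hsCoeff e C = ∑ i, trφ (clsInd C) (e i i) := by
  classical
  unfold hsCoeff trφ
  rw [← Summable.tsum_finsetSum (fun i _ => summable_trφ (clsInd_norm_le C) (he i i))]
  rw [tsum_subtype C.carrier (fun g => ∑ i, e i i g)]
  congr 1
  funext g
  unfold clsInd Set.indicator
  split_ifs <;> simp

theorem conv_twist (χ : G →* ℂ) (a b : G → ℂ) :
    conv (fun g => χ g * a g) (fun g => χ g * b g) = fun g => χ g * conv a b g := by
  funext g
  unfold conv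
  rw [← tsum_mul_left]
  congr 1
  funext h
  have : χ g = χ h * χ (h⁻¹ * g) := by rw [← map_mul]; simp
  rw [this]; ring

theorem MemL1.twist {χ : G → ℂ} (hχ : ∀ g, ‖χ g‖ ≤ 1) {a : G → ℂ} (ha : MemL1 a) :
    MemL1 (fun g => χ g * a g) := by
  apply Summable.of_nonneg_of_le (fun _ => norm_nonneg _) _ ha
  intro g
  rw [norm_mul]
  calc ‖χ g‖ * ‖a g‖ ≤ 1 * ‖a g‖ := by gcongr; exact hχ g
    _ = ‖a g‖ := one_mul _

theorem IsIdemFam.twist {n : Type*} [Fintype n] {E : n → n → G → ℂ} (hE : IsIdemFam E)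
    (χ : G →* ℂ) (hχ : ∀ g, ‖χ g‖ ≤ 1) : IsIdemFam (fun i j g => χ g * E i j g) := by
  refine ⟨fun i j => (hE.1 i j).twist hχ, fun i k => ?_⟩
  simp_rw [conv_twist]
  funext g
  rw [Finset.sum_apply, ← Finset.mul_sum]
  congr 1
  have := congrFun (hE.2 i k) g
  rw [Finset.sum_apply] at this
  exact this

theorem char_const_on_class (χ : G →* ℂ) {g₀ g : G}
    (hg : g ∈ (ConjClasses.mk g₀).carrier) : χ g = χ g₀ := by
  rw [ConjClasses.mem_carrier_iff_mk_eq, ConjClasses.mk_eq_mk_iff_isConj, isConj_iff] at hg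
  obtain ⟨c, hc⟩ := hg
  rw [← hc, map_mul, map_mul, mul_comm (χ c), mul_assoc, ← map_mul]
  simp

theorem trφ_twist (χ : G →* ℂ) (g₀ : G) (a : G → ℂ) :
    trφ (clsInd (ConjClasses.mk g₀)) (fun g => χ g * a g)
      = χ g₀ * trφ (clsInd (ConjClasses.mk g₀)) a := by
  unfold trφ
  rw [← tsum_mul_left]
  congr 1
  funext g
  by_cases hg : g ∈ (ConjClasses.mk g₀).carrier
  · show clsInd (ConjClasses.mk g₀) g * (χ g * a g) = _
    rw [char_const_on_class χ hg]; ring
  · simp [clsInd, hg]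

/-- total weight function of a matrix over `ℓ¹(G)` -/
noncomputable def wt {n : Type*} [Fintype n] (E : n → n → G → ℂ) : G → ℝ :=
  fun g => ∑ i, ∑ j, ‖E i j g‖

theorem summable_wt {n : Type*} [Fintype n] {E : n → n → G → ℂ} (hE : ∀ i j, MemL1 (E i j)) :
    Summable (wt E) := by
  unfold wt
  exact summable_sum fun i _ => summable_sum fun j _ => hE i j

theorem wt_nonneg {n : Type*} [Fintype n] (E : n → n → G → ℂ) (g : G) : 0 ≤ wt E g :=
  Finset.sum_nonneg fun _ _ => Finset.sum_nonneg fun _ _ => norm_nonneg _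

theorem dist_twist_eq {n : Type*} [Fintype n] {E : n → n → G → ℂ} (hE : ∀ i j, MemL1 (E i j))
    (χ : G → ℂ) (hχ : ∀ g, ‖χ g‖ ≤ 1) :
    ∑ i, ∑ j, nrm ((fun g => χ g * E i j g) - E i j) = ∑' g, ‖χ g - 1‖ * wt E g := by
  have hs : ∀ i j, Summable fun g => ‖χ g - 1‖ * ‖E i j g‖ := by
    intro i j
    apply Summable.of_nonneg_of_le (fun _ => by positivity) _ ((hE i j).mul_left 2)
    intro g
    gcongr
    calc ‖χ g - 1‖ ≤ ‖χ g‖ + ‖(1 : ℂ)‖ := norm_sub_le _ _
      _ ≤ 1 + 1 := by gcongr; exact hχ g; simp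
      _ = 2 := by norm_num
  have h1 : ∀ i j, nrm ((fun g => χ g * E i j g) - E i j) = ∑' g, ‖χ g - 1‖ * ‖E i j g‖ := by
    intro i j
    unfold nrm
    congr 1
    funext g
    rw [← norm_mul]
    congr 1
    simp only [Pi.sub_apply]
    ring
  simp_rw [h1]
  unfold wt
  simp_rw [Finset.mul_sum]
  rw [Summable.tsum_finsetSum (fun i _ => summable_sum fun j _ => hs i j)]
  apply Finset.sum_congr rfl
  intro i _
  rw [Summable.tsum_finsetSum (fun j _ => hs i j)]

/-- Key vanishing criterion for unitary characters. -/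
theorem vanish_of_char {n : Type*} [Fintype n] [DecidableEq n] {E : n → n → G → ℂ}
    (hE : IsIdemFam E) (χ : G →* ℂ) (hχ : ∀ g, ‖χ g‖ ≤ 1)
    (hclose : ∑' g, ‖χ g - 1‖ * wt E g < 1) (g₀ : G) (hne : χ g₀ ≠ 1) :
    ∑ i, trφ (clsInd (ConjClasses.mk g₀)) (E i i) = 0 := by
  have key := trace_eq_of_close hE (hE.twist χ hχ) (clsInd_norm_le (ConjClasses.mk g₀))
    (clsInd_comm _) (by rw [dist_twist_eq hE.1 χ hχ]; exact hclose)
  simp_rw [trφ_twist] at key
  rw [← Finset.mul_sum] at key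
  have : (χ g₀ - 1) * ∑ i, trφ (clsInd (ConjClasses.mk g₀)) (E i i) = 0 := by
    rw [sub_mul, one_mul, ← key, sub_self]
  rcases mul_eq_zero.mp this with h | h
  · exact absurd (sub_eq_zero.mp h) hne
  · exact h

end Vale.Agent.Lib.P184
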